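import Mathlib

namespace Vale.Agent.Lib.P295

open MvPolynomial

/-- `f` is a coordinate: some algebra automorphism maps a variable to `f`. -/
def IsCoord {σ : Type*} (f : MvPolynomial σ ℂ) : Prop :=
  ∃ (φ : MvPolynomial σ ℂ ≃ₐ[ℂ] MvPolynomial σ ℂ) (i : σ), φ (X i) = f

/-- Diagonal scaling of the variables is an automorphism. -/
noncomputable def scaleEquiv {σ : Type*} (u : σ → ℂ) (hu : ∀ i, u i ≠ 0) :
    MvPolynomial σ ℂ ≃ₐ[ℂ] MvPolynomial σ ℂ :=
  AlgEquiv.ofAlgHom (aeval (fun i => C (u i) * X i)) (aeval (fun i => C (u i)⁻¹ * X i))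
    (by
      apply algHom_ext
      intro i
      simp only [AlgHom.comp_apply, aeval_X, map_mul, aeval_C, AlgHom.id_apply]
      rw [← mul_assoc]
      simp only [algebraMap_eq]
      rw [← C_mul, inv_mul_cancel₀ (hu i)]
      simp)
    (by
      apply algHom_ext
      intro i
      simp only [AlgHom.comp_apply, aeval_X, map_mul, aeval_C, AlgHom.id_apply]
      rw [← mul_assoc]
      simp only [algebraMap_eq]
      rw [← C_mul, mul_inv_cancel₀ (hu i)]
      simp)

lemma scaleEquiv_X {σ : Type*} (u : σ → ℂ) (hu : ∀ i, u i ≠ 0) (i : σ) :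
    scaleEquiv u hu (X i) = C (u i) * X i := by
  simp [scaleEquiv]

/-- A polynomial that is translated by `s` under the substitution `x ↦ x + s v` is a coordinate. -/
theorem isCoord_of_translation {σ : Type*} [DecidableEq σ] (f : MvPolynomial σ ℂ) (v : σ → ℂ)
    (i0 : σ) (hv : v i0 ≠ 0)
    (hK : ∀ (Y : σ → MvPolynomial σ ℂ) (s : MvPolynomial σ ℂ),
      aeval (fun i => Y i + C (v i) * s) f = aeval Y f + s) :
    IsCoord f := by
  set μ : MvPolynomial σ ℂ := C (v i0)⁻¹ * X i0 with hμ
  set h : MvPolynomial σ ℂ := aeval (fun i => X i - C (v i) * μ) f with hh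
  have hfh : f = h + μ := by
    have := hK (fun i => X i - C (v i) * μ) μ
    have e : (fun i => X i - C (v i) * μ + C (v i) * μ) = (X : σ → MvPolynomial σ ℂ) := by
      funext i; ring
    rw [e, aeval_X_left_apply] at this
    exact this
  have hμs : ∀ s : MvPolynomial σ ℂ, aeval (fun i => X i + C (v i) * s) μ = μ + s := by
    intro s
    simp only [hμ, map_mul, aeval_C, aeval_X, algebraMap_eq]
    rw [mul_add, ← mul_assoc, ← C_mul, inv_mul_cancel₀ hv]
    simp
  have hinv : ∀ s : MvPolynomial σ ℂ, aeval (fun i => X i + C (v i) * s) h = h := by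
    intro s
    have e1 := comp_aeval (R := ℂ) (fun i => X i - C (v i) * μ)
      (aeval (fun i => X i + C (v i) * s) : MvPolynomial σ ℂ →ₐ[ℂ] MvPolynomial σ ℂ)
    have e2 := congrArg (fun F => F f) e1
    simp only [AlgHom.comp_apply] at e2
    rw [hh, e2]
    congr 2
    funext i
    rw [map_sub, map_mul, hμs s]
    simp only [aeval_X, aeval_C, algebraMap_eq]
    ring
  set E : MvPolynomial σ ℂ →ₐ[ℂ] MvPolynomial σ ℂ := aeval (fun i => X i + C (v i) * h) with hE
  set E' : MvPolynomial σ ℂ →ₐ[ℂ] MvPolynomial σ ℂ := aeval (fun i => X i - C (v i) * h) with hE'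
  have hEh : E h = h := hinv h
  have hE'h : E' h = h := by
    have := hinv (-h)
    have e : (fun i => X i + C (v i) * -h) = fun i => X i - C (v i) * h := by
      funext i; ring
    rw [e] at this
    exact this
  have h1 : E.comp E' = AlgHom.id ℂ _ := by
    apply algHom_ext
    intro i
    simp only [AlgHom.comp_apply, AlgHom.id_apply]
    rw [hE', aeval_X, map_sub, map_mul, hEh, hE, aeval_X, aeval_C]
    simp only [algebraMap_eq]
    ring
  have h2 : E'.comp E = AlgHom.id ℂ _ := by
    apply algHom_ext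
    intro i
    simp only [AlgHom.comp_apply, AlgHom.id_apply]
    rw [hE, aeval_X, map_add, map_mul, hE'h, hE', aeval_X, aeval_C]
    simp only [algebraMap_eq]
    ring
  set Ee : MvPolynomial σ ℂ ≃ₐ[ℂ] MvPolynomial σ ℂ := AlgEquiv.ofAlgHom E E' h1 h2 with hEe
  set u : σ → ℂ := fun i => if i = i0 then (v i0)⁻¹ else 1 with hu
  have hu0 : ∀ i, u i ≠ 0 := by
    intro i
    simp only [hu]
    split_ifs
    · exact inv_ne_zero hv
    · exact one_ne_zero
  refine ⟨(scaleEquiv u hu0).trans Ee, i0, ?_⟩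
  rw [AlgEquiv.trans_apply, scaleEquiv_X]
  have hui : u i0 = (v i0)⁻¹ := by simp [hu]
  rw [hui, map_mul]
  have e1 : Ee (C (v i0)⁻¹) = C (v i0)⁻¹ := by
    simp [hEe, hE]
  have e2 : Ee (X i0) = X i0 + C (v i0) * h := by
    simp [hEe, hE]
  rw [e1, e2, hfh, hμ, mul_add, ← mul_assoc, ← C_mul, inv_mul_cancel₀ hv]
  simp [add_comm]

/-- A coordinate has no critical point: if the derivative of `g` at `a` vanishes in every
direction (expressed with dual numbers), then `g` is not a coordinate. -/
theorem not_isCoord_of_critical {τ : Type*} (g : MvPolynomial τ ℂ) (a : τ → ℂ)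
    (hcrit : ∀ c : τ → ℂ,
      (aeval (fun k => (TrivSqZeroExt.inl (a k) + TrivSqZeroExt.inr (c k) : DualNumber ℂ)) g).snd = 0) :
    ¬ IsCoord g := by
  rintro ⟨φ, i0, hφ⟩
  classical
  -- the inverse automorphism
  set P : τ → MvPolynomial τ ℂ := fun k => φ.symm (X k) with hP
  set Gp : τ → MvPolynomial τ ℂ := fun k => φ (X k) with hGp
  have hψ : ∀ h : MvPolynomial τ ℂ, φ.symm h = aeval P h := by
    intro h
    have := aeval_unique (φ.symm : MvPolynomial τ ℂ →ₐ[ℂ] MvPolynomial τ ℂ)
    exact congrArg (fun F => F h) this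
  have hφ' : ∀ h : MvPolynomial τ ℂ, φ h = aeval Gp h := by
    intro h
    have := aeval_unique (φ : MvPolynomial τ ℂ →ₐ[ℂ] MvPolynomial τ ℂ)
    exact congrArg (fun F => F h) this
  have hX : X i0 = aeval P g := by
    rw [← hψ, ← hφ]; simp
  set b : τ → ℂ := fun k => aeval a (Gp k) with hb
  have hba : ∀ k, aeval b (P k) = a k := by
    intro k
    have h1 : aeval b (P k) = aeval a (aeval Gp (P k)) := by
      have := comp_aeval (R := ℂ) Gp (aeval a : MvPolynomial τ ℂ →ₐ[ℂ] ℂ)
      have h2 : aeval a (aeval Gp (P k)) = aeval (fun i => aeval a (Gp i)) (P k) :=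
        congrArg (fun F => F (P k)) this
      exact h2.symm
    rw [h1, ← hφ', hP]
    simp
  set β : τ → DualNumber ℂ := fun k =>
    TrivSqZeroExt.inl (b k) + TrivSqZeroExt.inr (if k = i0 then (1 : ℂ) else 0) with hβ
  have h1 : aeval β (X i0 : MvPolynomial τ ℂ) = aeval β (aeval P g) := by rw [← hX]
  have h2 : aeval β (aeval P g) = aeval (fun k => aeval β (P k)) g := by
    have := comp_aeval (R := ℂ) P (aeval β : MvPolynomial τ ℂ →ₐ[ℂ] DualNumber ℂ)
    exact congrArg (fun F => F g) this
  have h3 : ∀ k, aeval β (P k)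
      = TrivSqZeroExt.inl (a k) + TrivSqZeroExt.inr ((aeval β (P k)).snd) := by
    intro k
    have hfst : (aeval β (P k)).fst = a k := by
      have h4 := comp_aeval (R := ℂ) β (TrivSqZeroExt.fstHom ℂ ℂ ℂ)
      have h5 := congrArg (fun F => F (P k)) h4
      simp only [AlgHom.comp_apply] at h5
      have h6 : (fun i => (TrivSqZeroExt.fstHom ℂ ℂ ℂ) (β i)) = b := by
        funext i
        simp only [hβ]
        split_ifs <;> simp
      rw [h6] at h5
      rw [← hba k, ← h5]
      rfl
    rw [← hfst]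
    exact (TrivSqZeroExt.inl_fst_add_inr_snd_eq _).symm
  have h4 : (aeval β (aeval P g)).snd = 0 := by
    rw [h2]
    have : (fun k => aeval β (P k))
        = fun k => (TrivSqZeroExt.inl (a k) + TrivSqZeroExt.inr ((aeval β (P k)).snd) : DualNumber ℂ) := by
      funext k; exact h3 k
    rw [this]
    exact hcrit _
  have h5 : (aeval β (X i0 : MvPolynomial τ ℂ)).snd = 1 := by
    simp [hβ]
  rw [h1, h4] at h5
  exact zero_ne_one h5

end Vale.Agent.Lib.P295
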