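import Vale.Agent.Lib.P295.Quad

namespace Vale.Agent.Lib.P295

open MvPolynomial

/-- Linear algebra dichotomy for a symmetric system. -/
lemma symm_dichotomy {n : ℕ} (M : Fin n → Fin n → ℂ) (hM : ∀ i j, M i j = M j i) (b : Fin n → ℂ) :
    (∃ a : Fin n → ℂ, ∀ i, ∑ j, M i j * a j + b i = 0) ∨
    (∃ v : Fin n → ℂ, (∀ i, ∑ j, M i j * v j = 0) ∧ ∑ i, b i * v i = 1) := by
  classical
  set L : (Fin n → ℂ) →ₗ[ℂ] (Fin n → ℂ) := Matrix.mulVecLin (Matrix.of M) with hL
  by_cases hb : b ∈ LinearMap.range L
  · left
    obtain ⟨x, hx⟩ := hb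
    refine ⟨-x, fun i => ?_⟩
    have := congrFun hx i
    simp only [hL, Matrix.mulVecLin_apply, Matrix.mulVec, dotProduct, Matrix.of_apply] at this
    rw [← this]
    simp
  · right
    obtain ⟨lam, hlam, hker⟩ := Submodule.exists_le_ker_of_notMem hb
    have hrep : ∀ x : Fin n → ℂ, lam x = ∑ i, x i * lam (Pi.single i 1) := by
      intro x
      have := LinearMap.pi_apply_eq_sum_univ lam x
      rw [this]
      apply Finset.sum_congr rfl; intro i _
      rw [smul_eq_mul]
      congr 2
      funext j
      simp [Pi.single_apply, eq_comm]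
    refine ⟨fun i => lam (Pi.single i 1) / lam b, ?_, ?_⟩
    · intro i
      have h1 : L (Pi.single i 1) ∈ LinearMap.range L := LinearMap.mem_range_self L _
      have h2 : lam (L (Pi.single i 1)) = 0 := hker h1
      have h3 : L (Pi.single i 1) = fun j => M i j := by
        funext j
        simp only [hL, Matrix.mulVecLin_apply]
        rw [Matrix.mulVec_single_one]
        simp [Matrix.of_apply, hM i j]
      rw [h3, hrep] at h2
      have : ∑ j, M i j * (lam (Pi.single j 1) / lam b)
          = (∑ j, M i j * lam (Pi.single j 1)) / lam b := by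
        rw [Finset.sum_div]
        apply Finset.sum_congr rfl; intro j _; ring
      rw [this, h2]; simp
    · have : ∑ i, b i * (lam (Pi.single i 1) / lam b)
          = (∑ i, b i * lam (Pi.single i 1)) / lam b := by
        rw [Finset.sum_div]
        apply Finset.sum_congr rfl; intro j _; ring
      rw [this, ← hrep b]
      exact div_self hlam

end Vale.Agent.Lib.P295
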