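import Vale.Agent.Lib.P295.LinAlg

namespace Vale.Agent.Lib.P295

open MvPolynomial

lemma quad_add {σ : Type*} [Fintype σ] (A A' : σ → σ → ℂ) (b b' : σ → ℂ) (c c' : ℂ) :
    quad A b c + quad A' b' c'
      = quad (fun i j => A i j + A' i j) (fun i => b i + b' i) (c + c') := by
  unfold quad
  simp only [C_add, add_mul, Finset.sum_add_distrib]
  ring

lemma quad_zero {σ : Type*} [Fintype σ] :
    quad (fun _ _ : σ => (0 : ℂ)) (fun _ => 0) 0 = 0 := by
  simp [quad]

lemma quad_const {σ : Type*} [Fintype σ] (a : ℂ) :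
    quad (fun _ _ : σ => (0 : ℂ)) (fun _ => 0) a = C a := by
  simp [quad]

lemma quad_lin {σ : Type*} [Fintype σ] [DecidableEq σ] (i : σ) (a : ℂ) :
    quad (fun _ _ : σ => (0 : ℂ)) (fun i' => if i' = i then a else 0) 0 = C a * X i := by
  simp only [quad, C_0, zero_mul, Finset.sum_const_zero, zero_add, add_zero]
  rw [Finset.sum_eq_single i]
  · simp
  · intro i' _ h; simp [h]
  · intro h; exact absurd (Finset.mem_univ i) h

lemma quad_sq {σ : Type*} [Fintype σ] [DecidableEq σ] (i j : σ) (a : ℂ) :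
    quad (fun i' j' : σ => if i' = i ∧ j' = j then a else 0) (fun _ => 0) 0
      = C a * X i * X j := by
  simp only [quad, C_0, zero_mul, Finset.sum_const_zero, add_zero]
  rw [Finset.sum_eq_single i]
  · rw [Finset.sum_eq_single j]
    · simp
    · intro j' _ h; simp [h]
    · intro h; exact absurd (Finset.mem_univ j) h
  · intro i' _ h
    apply Finset.sum_eq_zero
    intro j' _
    simp [h]
  · intro h; exact absurd (Finset.mem_univ i) h

lemma finsupp_split {σ : Type*} [DecidableEq σ] (d : σ →₀ ℕ) (hd : d ≠ 0) :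
    ∃ i d', d = Finsupp.single i 1 + d' ∧ Finsupp.degree d = 1 + Finsupp.degree d' := by
  obtain ⟨i, hi⟩ : ∃ i, d i ≠ 0 := by
    by_contra h
    push Not at h
    exact hd (Finsupp.ext h)
  refine ⟨i, d - Finsupp.single i 1, ?_, ?_⟩
  · ext j
    simp only [Finsupp.add_apply, Finsupp.tsub_apply, Finsupp.single_apply]
    split_ifs with h
    · subst h; omega
    · omega
  · have e : d = Finsupp.single i 1 + (d - Finsupp.single i 1) := by
      ext j
      simp only [Finsupp.add_apply, Finsupp.tsub_apply, Finsupp.single_apply]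
      split_ifs with h
      · subst h; omega
      · omega
    conv_lhs => rw [e]
    rw [map_add, Finsupp.degree_single]

lemma exists_quad_of_monomial {n : ℕ} (d : Fin n →₀ ℕ) (a : ℂ) (hd : Finsupp.degree d ≤ 2) :
    ∃ A b c, monomial d a = quad A b c := by
  classical
  by_cases h0 : d = 0
  · subst h0
    exact ⟨fun _ _ => 0, fun _ => 0, a, (quad_const a).symm⟩
  obtain ⟨i, d', hd', hdeg'⟩ := finsupp_split d h0
  by_cases h1 : d' = 0
  · subst h1
    refine ⟨fun _ _ => 0, fun i' => if i' = i then a else 0, 0, ?_⟩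
    rw [quad_lin i a, hd', monomial_single_add]
    simp [mul_comm]
  obtain ⟨j, d'', hd'', hdeg''⟩ := finsupp_split d' h1
  have h2 : d'' = 0 := by
    rw [← Finsupp.degree_eq_zero_iff]
    omega
  subst h2
  refine ⟨fun i' j' => if i' = i ∧ j' = j then a else 0, fun _ => 0, 0, ?_⟩
  rw [quad_sq i j a, hd', hd'', monomial_single_add, monomial_single_add]
  simp only [pow_one, monomial_zero']
  ring

lemma exists_quad_of_totalDegree_le {n : ℕ} (f : MvPolynomial (Fin n) ℂ) (hf : f.totalDegree ≤ 2) :
    ∃ A b c, f = quad A b c := by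
  rw [f.as_sum]
  refine Finset.sum_induction (fun d => monomial d (coeff d f))
    (fun g : MvPolynomial (Fin n) ℂ => ∃ A b c, g = quad A b c) ?_ ?_ ?_
  · rintro g g' ⟨A, b, c, rfl⟩ ⟨A', b', c', rfl⟩
    exact ⟨_, _, _, quad_add A A' b b' c c'⟩
  · exact ⟨fun _ _ => 0, fun _ => 0, 0, quad_zero.symm⟩
  · intro d hd
    refine exists_quad_of_monomial d _ ?_
    have := le_totalDegree hd
    exact le_trans this hf

/-- A polynomial of degree at most two that is a coordinate after adjoining new variables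
is a coordinate. -/
theorem quad_stable {n : ℕ} (A : Fin n → Fin n → ℂ) (b : Fin n → ℂ) (c : ℂ)
    (hst : ∃ m : ℕ, IsCoord (rename (Sum.inl : Fin n → Fin n ⊕ Fin m) (quad A b c))) :
    IsCoord (quad A b c) := by
  classical
  rcases symm_dichotomy (fun i j => A i j + A j i) (fun i j => add_comm _ _) b with ⟨a, ha⟩ | ⟨v, hv, hb⟩
  · exfalso
    obtain ⟨m, hm⟩ := hst
    refine not_isCoord_of_critical _ (Sum.elim a (fun _ => 0)) ?_ hm
    intro d
    rw [aeval_rename]
    exact quad_critical A b c a ha (fun k => d (Sum.inl k))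
  · obtain ⟨i0, hi0⟩ : ∃ i0, v i0 ≠ 0 := by
      by_contra h
      push Not at h
      simp [h] at hb
    exact isCoord_of_translation _ v i0 hi0 (quad_translation A b c v hv hb)

theorem stable_coord_of_totalDegree_le_two {n : ℕ} (f : MvPolynomial (Fin n) ℂ)
    (hdeg : f.totalDegree ≤ 2)
    (hst : ∃ m : ℕ, IsCoord (rename (Sum.inl : Fin n → Fin n ⊕ Fin m) f)) :
    IsCoord f := by
  obtain ⟨A, b, c, rfl⟩ := exists_quad_of_totalDegree_le f hdeg
  exact quad_stable A b c hst

end Vale.Agent.Lib.P295
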