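import Vale.Agent.Lib.P295.Basic

namespace Vale.Agent.Lib.P295

open MvPolynomial

/-- The general polynomial of degree at most two. -/
noncomputable def quad {σ : Type*} [Fintype σ] (A : σ → σ → ℂ) (b : σ → ℂ) (c : ℂ) :
    MvPolynomial σ ℂ :=
  ∑ i, ∑ j, C (A i j) * X i * X j + ∑ i, C (b i) * X i + C c

lemma aeval_quad {σ : Type*} [Fintype σ] {B : Type*} [CommRing B] [Algebra ℂ B]
    (A : σ → σ → ℂ) (b : σ → ℂ) (c : ℂ) (Y : σ → B) :
    aeval Y (quad A b c)
      = ∑ i, ∑ j, algebraMap ℂ B (A i j) * Y i * Y j + ∑ i, algebraMap ℂ B (b i) * Y i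
        + algebraMap ℂ B c := by
  simp [quad, map_sum]

lemma quad_translation {σ : Type*} [Fintype σ] (A : σ → σ → ℂ) (b : σ → ℂ) (c : ℂ) (v : σ → ℂ)
    (hM : ∀ i, ∑ j, (A i j + A j i) * v j = 0) (hb : ∑ i, b i * v i = 1)
    (Y : σ → MvPolynomial σ ℂ) (s : MvPolynomial σ ℂ) :
    aeval (fun i => Y i + C (v i) * s) (quad A b c) = aeval Y (quad A b c) + s := by
  rw [aeval_quad, aeval_quad]
  simp only [algebraMap_eq]
  have hvv : ∑ i, ∑ j, A i j * v i * v j = 0 := by
    have h1 : ∑ i, v i * ∑ j, (A i j + A j i) * v j = 0 := by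
      apply Finset.sum_eq_zero; intro i _; rw [hM i]; ring
    have h2 : ∑ i, v i * ∑ j, (A i j + A j i) * v j
        = ∑ i, ∑ j, A i j * v i * v j + ∑ i, ∑ j, A j i * v i * v j := by
      rw [← Finset.sum_add_distrib]
      apply Finset.sum_congr rfl; intro i _
      rw [Finset.mul_sum, ← Finset.sum_add_distrib]
      apply Finset.sum_congr rfl; intro j _
      ring
    have h3 : ∑ i, ∑ j, A j i * v i * v j = ∑ i, ∑ j, A i j * v i * v j := by
      rw [Finset.sum_comm]
      apply Finset.sum_congr rfl; intro i _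
      apply Finset.sum_congr rfl; intro j _
      ring
    rw [h2, h3] at h1
    linear_combination (1 / 2 : ℂ) * h1
  have hmid : ∑ i, ∑ j, C (A i j) * C (v j) * Y i + ∑ i, ∑ j, C (A i j) * C (v i) * Y j = 0 := by
    rw [Finset.sum_comm (f := fun i j => C (A i j) * C (v i) * Y j), ← Finset.sum_add_distrib]
    apply Finset.sum_eq_zero; intro i _
    rw [← Finset.sum_add_distrib]
    have : ∑ j, (C (A i j) * C (v j) * Y i + C (A j i) * C (v j) * Y i)
        = C (∑ j, (A i j + A j i) * v j) * Y i := by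
      rw [map_sum, Finset.sum_mul]
      apply Finset.sum_congr rfl; intro j _
      rw [C_mul, C_add]; ring
    rw [this, hM i]; simp
  have e1 : ∑ i, ∑ j, C (A i j) * (Y i + C (v i) * s) * (Y j + C (v j) * s)
      = ∑ i, ∑ j, C (A i j) * Y i * Y j
        + s * (∑ i, ∑ j, C (A i j) * C (v j) * Y i + ∑ i, ∑ j, C (A i j) * C (v i) * Y j)
        + s * s * C (∑ i, ∑ j, A i j * v i * v j) := by
    rw [map_sum, Finset.mul_sum, mul_add, Finset.mul_sum, Finset.mul_sum,
      ← Finset.sum_add_distrib, ← Finset.sum_add_distrib, ← Finset.sum_add_distrib]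
    apply Finset.sum_congr rfl; intro i _
    rw [map_sum, Finset.mul_sum, Finset.mul_sum, Finset.mul_sum,
      ← Finset.sum_add_distrib, ← Finset.sum_add_distrib, ← Finset.sum_add_distrib]
    apply Finset.sum_congr rfl; intro j _
    rw [C_mul, C_mul]; ring
  have e2 : ∑ i, C (b i) * (Y i + C (v i) * s) = ∑ i, C (b i) * Y i + s := by
    have : ∑ i, C (b i) * (Y i + C (v i) * s) = ∑ i, C (b i) * Y i + s * C (∑ i, b i * v i) := by
      rw [map_sum, Finset.mul_sum, ← Finset.sum_add_distrib]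
      apply Finset.sum_congr rfl; intro i _
      rw [C_mul]; ring
    rw [this, hb]; simp
  rw [e1, e2, hmid, hvv]
  simp
  ring

lemma quad_critical {σ : Type*} [Fintype σ] (A : σ → σ → ℂ) (b : σ → ℂ) (c : ℂ) (a : σ → ℂ)
    (ha : ∀ i, ∑ j, (A i j + A j i) * a j + b i = 0) (d : σ → ℂ) :
    (aeval (fun k => (TrivSqZeroExt.inl (a k) + TrivSqZeroExt.inr (d k) : DualNumber ℂ))
      (quad A b c)).snd = 0 := by
  rw [aeval_quad]
  simp only [TrivSqZeroExt.algebraMap_eq_inl, TrivSqZeroExt.snd_add, TrivSqZeroExt.snd_sum,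
    TrivSqZeroExt.snd_mul, TrivSqZeroExt.fst_mul, TrivSqZeroExt.fst_add, TrivSqZeroExt.fst_inl,
    TrivSqZeroExt.fst_inr, TrivSqZeroExt.snd_inl, TrivSqZeroExt.snd_inr, smul_eq_mul,
    MulOpposite.smul_eq_mul_unop, MulOpposite.unop_op, add_zero, zero_add, smul_zero]
  have h1 : ∑ i, d i * (∑ j, (A i j + A j i) * a j + b i) = 0 := by
    apply Finset.sum_eq_zero; intro i _; rw [ha i]; ring
  have h2 : ∑ i, d i * (∑ j, (A i j + A j i) * a j + b i)
      = ∑ i, ∑ j, A i j * a j * d i + ∑ i, ∑ j, A j i * a j * d i + ∑ i, b i * d i := by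
    rw [← Finset.sum_add_distrib, ← Finset.sum_add_distrib]
    apply Finset.sum_congr rfl; intro i _
    rw [mul_add, Finset.mul_sum, ← Finset.sum_add_distrib]
    congr 1
    · apply Finset.sum_congr rfl; intro j _; ring
    · ring
  have h3 : ∑ i, ∑ j, A j i * a j * d i = ∑ i, ∑ j, A i j * a i * d j := by
    rw [Finset.sum_comm]
  rw [h2, h3] at h1
  rw [← h1]
  simp only [Finset.sum_add_distrib]
  have e1 : ∑ x, ∑ i, A x i * a x * d i = ∑ i, ∑ j, A i j * a i * d j := rfl
  have e2 : ∑ x, ∑ i, A x i * d x * a i = ∑ i, ∑ j, A i j * a j * d i := by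
    apply Finset.sum_congr rfl; intro i _
    apply Finset.sum_congr rfl; intro j _
    ring
  rw [e1, e2]
  ring

end Vale.Agent.Lib.P295
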